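import Vale.Agent.P073.H739.Nbhd
import Vale.Agent.P073.H880.Rows

/-!
# P073, row B, part 3: the cells of the dyadic grid and the Whitney family
-/

namespace Vale.Agent.P073.H739

open MeasureTheory Set Filter Topology Metric
open Vale.Agent.P073.SQ (cube)
open Vale.Agent.P073.H880 (Boxes)
open scoped ENNReal

/-- points of three-space -/
abbrev V3 : Type := Fin 3 → ℝ

/-- half side at scale `n` -/
noncomputable def rad (n : ℕ) : ℝ := 1 / 2 ^ (n + 1)

theorem rad_pos (n : ℕ) : 0 < rad n := by unfold rad; positivity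

theorem rad_succ (n : ℕ) : rad n = 2 * rad (n + 1) := by
  unfold rad
  rw [pow_succ _ (n + 1)]
  field_simp

theorem two_rad (n : ℕ) : 2 * rad n = 1 / 2 ^ n := by
  unfold rad
  rw [pow_succ]
  field_simp

theorem rad_mul (n : ℕ) : rad n * 2 ^ n = 1 / 2 := by
  unfold rad
  rw [pow_succ]
  field_simp

/-- centre of a cell -/
noncomputable def cen (v : V3) (n : ℕ) (m : Fin 3 → ℤ) : V3 := fun l => v l + (2 * m l + 1) * rad n

/-- index of the cell of `x` -/
noncomputable def idx (v : V3) (n : ℕ) (x : V3) : Fin 3 → ℤ := fun l => ⌊(x l - v l) * 2 ^ n⌋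

theorem cube_eq {c : V3} {ρ : ℝ} (hρ : 0 ≤ ρ) : cube c ρ = closedBall c ρ := by
  ext x
  rw [mem_closedBall, dist_pi_le_iff hρ]
  rfl

theorem mem_ball_pi {c x : V3} {ρ : ℝ} (hρ : 0 < ρ) : (∀ l, |x l - c l| < ρ) ↔ x ∈ ball c ρ := by
  rw [mem_ball, dist_pi_lt_iff hρ]
  rfl

theorem coord_scale (v x : V3) (n : ℕ) (m : Fin 3 → ℤ) (l : Fin 3) :
    (x l - cen v n m l) * 2 ^ n = (x l - v l) * 2 ^ n - m l - 1 / 2 := by
  have := rad_mul n
  unfold cen
  have e : (x l - (v l + (2 * (m l : ℝ) + 1) * rad n)) * 2 ^ n =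
    (x l - v l) * 2 ^ n - (2 * m l + 1) * (rad n * 2 ^ n) := by ring
  rw [e, this]
  ring

theorem idx_of_mem_ball {v x : V3} {n : ℕ} {m : Fin 3 → ℤ} (hx : x ∈ ball (cen v n m) (rad n)) :
    idx v n x = m := by
  funext l
  have h := (mem_ball_pi (rad_pos n)).mpr hx l
  have hp : (0 : ℝ) < 2 ^ n := by positivity
  have h1 : |(x l - cen v n m l) * 2 ^ n| < 1 / 2 := by
    rw [abs_mul, abs_of_pos hp, ← rad_mul n]
    exact mul_lt_mul_of_pos_right h hp
  rw [coord_scale, abs_lt] at h1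
  unfold idx
  rw [Int.floor_eq_iff]
  constructor <;> linarith [h1.1, h1.2]

theorem mem_closedBall_idx (v x : V3) (n : ℕ) : x ∈ closedBall (cen v n (idx v n x)) (rad n) := by
  rw [← cube_eq (rad_pos n).le]
  intro l
  have hp : (0 : ℝ) < 2 ^ n := by positivity
  have h1 : |(x l - cen v n (idx v n x) l) * 2 ^ n| ≤ rad n * 2 ^ n := by
    rw [coord_scale, rad_mul, abs_le]
    have h2 := Int.floor_le ((x l - v l) * 2 ^ n)
    have h3 := (Int.lt_floor_add_one ((x l - v l) * 2 ^ n)).le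
    unfold idx
    constructor <;> linarith
  rw [abs_mul, abs_of_pos hp] at h1
  exact le_of_mul_le_mul_right h1 hp

theorem mem_ball_idx {v x : V3} {n : ℕ} (hx : ∀ (l : Fin 3) (q : ℤ), (x l - v l) * 2 ^ n ≠ q) :
    x ∈ ball (cen v n (idx v n x)) (rad n) := by
  rw [← mem_ball_pi (rad_pos n)]
  intro l
  have hp : (0 : ℝ) < 2 ^ n := by positivity
  have h1 : |(x l - cen v n (idx v n x) l) * 2 ^ n| < rad n * 2 ^ n := by
    rw [coord_scale, rad_mul, abs_lt]
    have h2 : (⌊(x l - v l) * 2 ^ n⌋ : ℝ) < (x l - v l) * 2 ^ n :=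
      lt_of_le_of_ne (Int.floor_le _) (hx l _).symm
    have h3 := (Int.lt_floor_add_one ((x l - v l) * 2 ^ n))
    unfold idx
    constructor <;> linarith
  rw [abs_mul, abs_of_pos hp] at h1
  exact lt_of_mul_lt_mul_right h1 hp.le

/-- parent index -/
def half (m : Fin 3 → ℤ) : Fin 3 → ℤ := fun l => m l / 2

theorem half_idx (v x : V3) (n : ℕ) : half (idx v (n + 1) x) = idx v n x := by
  funext l
  have e : (x l - v l) * 2 ^ (n + 1) = 2 * ((x l - v l) * 2 ^ n) := by rw [pow_succ]; ring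
  unfold half idx
  rw [e]
  set y := (x l - v l) * 2 ^ n
  have h1 := Int.floor_le y
  have h2 := Int.lt_floor_add_one y
  have h3 : 2 * ⌊y⌋ ≤ ⌊2 * y⌋ := by
    rw [Int.le_floor]
    push_cast
    linarith
  have h4 : ⌊2 * y⌋ < 2 * ⌊y⌋ + 2 := by
    rw [Int.floor_lt]
    push_cast
    linarith
  omega

theorem dist_cen_half (v : V3) (n : ℕ) (m : Fin 3 → ℤ) :
    dist (cen v (n + 1) m) (cen v n (half m)) ≤ rad (n + 1) := by
  rw [dist_pi_le_iff (rad_pos _).le]
  intro l
  rw [Real.dist_eq]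
  unfold cen half
  rw [rad_succ n]
  have e : v l + (2 * (m l : ℝ) + 1) * rad (n + 1) -
      (v l + (2 * ((m l / 2 : ℤ) : ℝ) + 1) * (2 * rad (n + 1))) =
      (2 * ((m l - 2 * (m l / 2) : ℤ) : ℝ) - 1) * rad (n + 1) := by
    push_cast
    ring
  rw [e, abs_mul, abs_of_pos (rad_pos _)]
  have h : m l - 2 * (m l / 2) = 0 ∨ m l - 2 * (m l / 2) = 1 := by omega
  have h1 : |2 * ((m l - 2 * (m l / 2) : ℤ) : ℝ) - 1| = 1 := by
    rcases h with h | h <;> rw [h] <;> norm_num
  rw [h1, one_mul]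

/-- admissible cells -/
def P (v : V3) (N : Set V3) (n : ℕ) (m : Fin 3 → ℤ) : Prop :=
  closedBall (cen v n m) (3 * rad n) ⊆ N

theorem P_mono {v : V3} {N : Set V3} {n : ℕ} {m : Fin 3 → ℤ} (h : P v N n (half m)) :
    P v N (n + 1) m := by
  refine Subset.trans (closedBall_subset_closedBall' ?_) h
  have := dist_cen_half v n m
  have := rad_pos (n + 1)
  rw [rad_succ n]
  linarith

/-- selected cells -/
def Sel (v : V3) (N K : Set V3) (n : ℕ) (m : Fin 3 → ℤ) : Prop :=
  P v N n m ∧ (n = 0 ∨ ¬ P v N (n - 1) (half m)) ∧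
    (closedBall (cen v n m) (rad n) ∩ K).Nonempty

theorem P_chain {v x : V3} {N : Set V3} {n n' : ℕ} (h : P v N n (idx v n x)) (hn : n ≤ n') :
    P v N n' (idx v n' x) := by
  induction n', hn using Nat.le_induction with
  | base => exact h
  | succ k hk ih =>
    apply P_mono
    rw [half_idx]
    exact ih

theorem sel_unique {v x : V3} {N K : Set V3} {n n' : ℕ} (h : Sel v N K n (idx v n x))
    (h' : Sel v N K n' (idx v n' x)) : n = n' := by
  have key : ∀ a b : ℕ, Sel v N K a (idx v a x) → Sel v N K b (idx v b x) → ¬ a < b := by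
    intro a b ha hb hab
    rcases hb.2.1 with h0 | h0
    · omega
    · apply h0
      obtain ⟨b', rfl⟩ := Nat.exists_eq_succ_of_ne_zero (by omega : b ≠ 0)
      simp only [Nat.succ_eq_add_one, Nat.add_sub_cancel] at *
      rw [half_idx]
      exact P_chain ha.1 (by omega)
  rcases lt_trichotomy n n' with h1 | h1 | h1
  · exact absurd h1 (key _ _ h h')
  · exact h1
  · exact absurd h1 (key _ _ h' h)

/-- two cells which meet (open with closed) coincide. -/
theorem sel_disj {v x : V3} {N K : Set V3} {n n' : ℕ} {m m' : Fin 3 → ℤ} (h : Sel v N K n m)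
    (h' : Sel v N K n' m') (hx : x ∈ ball (cen v n m) (rad n))
    (hx' : x ∈ closedBall (cen v n' m') (rad n')) : n = n' ∧ m = m' := by
  rw [← closure_ball _ (rad_pos n').ne'] at hx'
  obtain ⟨y, hy1, hy2⟩ := mem_closure_iff.mp hx' _ isOpen_ball hx
  have e1 := idx_of_mem_ball hy1
  have e2 := idx_of_mem_ball hy2
  rw [← e1] at h
  rw [← e2] at h'
  have hn := sel_unique h h'
  subst hn
  exact ⟨rfl, e1.symm.trans e2⟩

variable {v : V3} {N K Ω : Set V3}

theorem exists_sel (hN : IsOpen N) (hKN : K ⊆ N) {x : V3} (hx : x ∈ K) :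
    ∃ n, Sel v N K n (idx v n x) := by
  classical
  have hex : ∃ n, P v N n (idx v n x) := by
    obtain ⟨r, hr, hrN⟩ := Metric.isOpen_iff.mp hN x (hKN hx)
    obtain ⟨n, hn⟩ := exists_pow_lt_of_lt_one (show 0 < r / 4 by positivity)
      (show (1 / 2 : ℝ) < 1 by norm_num)
    refine ⟨n, fun y hy => hrN ?_⟩
    have h1 := mem_closedBall_idx v x n
    rw [mem_closedBall] at h1 hy
    have h2 : rad n < r / 4 := by
      refine lt_of_le_of_lt ?_ hn
      unfold rad
      rw [one_div_pow]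
      apply one_div_le_one_div_of_le (by positivity)
      exact pow_le_pow_right₀ (by norm_num) (by omega)
    rw [mem_ball]
    have h3 := dist_triangle_right y x (cen v n (idx v n x))
    linarith
  refine ⟨Nat.find hex, Nat.find_spec hex, ?_, ⟨x, mem_closedBall_idx v x _, hx⟩⟩
  rcases Nat.eq_zero_or_pos (Nat.find hex) with h0 | h0
  · exact Or.inl h0
  · right
    obtain ⟨b, hb⟩ := Nat.exists_eq_succ_of_ne_zero h0.ne'
    rw [hb]
    simp only [Nat.succ_eq_add_one, Nat.add_sub_cancel]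
    rw [half_idx]
    exact Nat.find_min hex (by omega)

theorem sel_lower (hNc : Nᶜ.Nonempty) {n : ℕ} {m : Fin 3 → ℤ} (h : Sel v N K n m) {z : V3}
    (hz : z ∈ closedBall (cen v n m) (rad n)) : 2 * rad n ≤ infDist z Nᶜ := by
  rw [le_infDist hNc]
  intro y hy
  by_contra hc
  push Not at hc
  apply hy
  apply h.1
  rw [mem_closedBall] at hz ⊢
  have h3 := dist_triangle_left y (cen v n m) z
  linarith

theorem sel_upper {n : ℕ} {m : Fin 3 → ℤ} (h : Sel v N K n m) (hn : n ≠ 0) {z : V3}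
    (hz : z ∈ closedBall (cen v n m) (rad n)) : infDist z Nᶜ ≤ 8 * rad n := by
  obtain ⟨k, rfl⟩ := Nat.exists_eq_succ_of_ne_zero hn
  have h1 := h.2.1.resolve_left hn
  simp only [Nat.succ_eq_add_one, Nat.add_sub_cancel] at *
  unfold P at h1
  rw [not_subset] at h1
  obtain ⟨y, hy1, hy2⟩ := h1
  refine (infDist_le_dist_of_mem hy2).trans ?_
  have h2 := dist_cen_half v k m
  rw [mem_closedBall] at hz hy1
  have h3 := dist_triangle z (cen v (k + 1) m) y
  have h4 := dist_triangle_right (cen v (k + 1) m) y (cen v k (half m))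
  have h5 := rad_succ k
  linarith

theorem sel_A (hNc : Nᶜ.Nonempty) {n : ℕ} {m : Fin 3 → ℤ} (h : Sel v N K n m) {z : V3}
    (hz : z ∈ closedBall (cen v n m) (rad n)) : z ∈ A (fun x => infDist x Nᶜ) n := by
  refine ⟨?_, ?_⟩
  · have := sel_lower hNc h hz
    rw [two_rad] at this
    exact this
  · by_cases hn : n = 0
    · exact Or.inl hn
    · right
      have h1 := sel_upper h hn hz
      have h2 := two_rad n
      have h3 : (4 : ℝ) / 2 ^ n = 4 * (1 / 2 ^ n) := by ring
      show infDist z Nᶜ ≤ _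
      rw [h3, ← h2]
      linarith

theorem sel_sub {n : ℕ} {m : Fin 3 → ℤ} (h : Sel v N K n m) :
    closedBall (cen v n m) (rad n) ⊆ N := by
  refine Subset.trans (closedBall_subset_closedBall ?_) h.1
  have := rad_pos n
  linarith

/-- finitely many cells of bounded generation meet a ball. -/
theorem finite_cells (x : V3) (r : ℝ) (n₀ : ℕ) :
    {a : ℕ × (Fin 3 → ℤ) | a.1 ≤ n₀ ∧
      (closedBall (cen v a.1 a.2) (rad a.1) ∩ ball x r).Nonempty}.Finite := by
  obtain ⟨B, hB⟩ : ∃ B : ℤ, ∀ l : Fin 3, 2 ^ n₀ * (|x l - v l| + |r| + 2) + 1 ≤ B := by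
    have h1 : ∀ l : Fin 3, ∃ B : ℤ, 2 ^ n₀ * (|x l - v l| + |r| + 2) + 1 ≤ B := fun l =>
      ⟨⌈2 ^ n₀ * (|x l - v l| + |r| + 2) + 1⌉, Int.le_ceil _⟩
    choose B hB using h1
    refine ⟨|B 0| + |B 1| + |B 2|, fun l => (hB l).trans ?_⟩
    have h0 := abs_nonneg (B 0)
    have h1 := abs_nonneg (B 1)
    have h2 := abs_nonneg (B 2)
    have : B l ≤ |B 0| + |B 1| + |B 2| := by
      have h3 := le_abs_self (B l)
      fin_cases l
      · simp only [Fin.zero_eta, Fin.isValue] at *; omega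
      · simp only [Fin.mk_one, Fin.isValue] at *; omega
      · simp only [Fin.reduceFinMk, Fin.isValue] at *; omega
    exact_mod_cast this
  have hfin : (Set.Iic n₀ ×ˢ (Set.pi univ fun _ : Fin 3 => Set.Icc (-B) B) :
      Set (ℕ × (Fin 3 → ℤ))).Finite :=
    (Set.finite_Iic n₀).prod (Set.Finite.pi fun _ => Set.finite_Icc _ _)
  refine hfin.subset ?_
  rintro ⟨n, m⟩ ⟨hn, z, hz1, hz2⟩
  simp only at hn hz1
  refine ⟨hn, fun l _ => ?_⟩
  rw [← cube_eq (rad_pos n).le] at hz1
  have h1 : |z l - cen v n m l| ≤ rad n := hz1 l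
  have h2 : |z l - x l| < r := by
    have := lt_of_le_of_lt (dist_le_pi_dist z x l) (mem_ball.mp hz2)
    rwa [Real.dist_eq] at this
  have hp : (0 : ℝ) < 2 ^ n := by positivity
  have h3 : |(z l - cen v n m l) * 2 ^ n| ≤ 1 / 2 := by
    rw [abs_mul, abs_of_pos hp, ← rad_mul n]
    exact mul_le_mul_of_nonneg_right h1 hp.le
  rw [coord_scale] at h3
  have h4 : |(z l - v l)| ≤ |x l - v l| + |r| := by
    have : z l - v l = (z l - x l) + (x l - v l) := by ring
    rw [this]
    refine (abs_add_le _ _).trans ?_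
    have := le_abs_self r
    linarith
  have hpn : (2 : ℝ) ^ n ≤ 2 ^ n₀ := pow_le_pow_right₀ (by norm_num) hn
  have h5 : |(z l - v l) * 2 ^ n| ≤ 2 ^ n₀ * (|x l - v l| + |r|) := by
    rw [abs_mul, abs_of_pos hp, mul_comm]
    exact mul_le_mul hpn h4 (abs_nonneg _) (by positivity)
  have h6 := hB l
  have hp0 : (1 : ℝ) ≤ 2 ^ n₀ := one_le_pow₀ (by norm_num)
  have h7 : 2 ^ n₀ * (|x l - v l| + |r|) + 2 ≤ B := by nlinarith
  rw [abs_le] at h3 h5
  show -B ≤ m l ∧ m l ≤ B
  have h8 : (m l : ℝ) ≤ B := by linarith [h3.1, h5.2]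
  have h9 : -(B : ℝ) ≤ m l := by linarith [h3.2, h5.1]
  exact ⟨by exact_mod_cast h9, by exact_mod_cast h8⟩

/-- the Whitney family -/
noncomputable def mkBoxes (v : V3) (hN : IsOpen N) (hNΩ : N ⊆ Ω) (hNc : Nᶜ.Nonempty)
    (hKN : K ⊆ N) (hK : IsOpen (Ω \ K))
    (hv : ∀ x ∈ K, ∀ (n : ℕ) (l : Fin 3) (q : ℤ), (x l - v l) * 2 ^ n ≠ q) : Boxes Ω K where
  ι := {a : ℕ × (Fin 3 → ℤ) // Sel v N K a.1 a.2}
  cnt := inferInstance
  c i := cen v i.1.1 i.1.2
  ρ i := rad i.1.1
  pos i := rad_pos _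
  sub i := by
    rw [cube_eq (rad_pos _).le]
    exact (sel_sub i.2).trans hNΩ
  disj i j hij x hx hx' := by
    rw [mem_ball_pi (rad_pos _)] at hx
    have hx2 : x ∈ closedBall (cen v j.1.1 j.1.2) (rad j.1.1) := by
      rw [← cube_eq (rad_pos _).le]
      exact hx'
    obtain ⟨h1, h2⟩ := sel_disj i.2 j.2 hx hx2
    exact hij (Subtype.ext (Prod.ext h1 h2))
  cover x hx := by
    obtain ⟨n, hn⟩ := exists_sel (v := v) hN hKN hx
    refine ⟨⟨(n, idx v n x), hn⟩, ?_⟩
    rw [mem_ball_pi (rad_pos _)]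
    exact mem_ball_idx (hv x hx n)
  fin x hx := by
    by_cases hxN : x ∈ N
    · -- finitely many scales
      have hd : 0 < infDist x Nᶜ := by
        rw [← (hN.isClosed_compl).notMem_iff_infDist_pos hNc]
        simpa using hxN
      set r := infDist x Nᶜ / 2 with hr
      have hr0 : 0 < r := by positivity
      obtain ⟨n₀, hn₀⟩ := exists_pow_lt_of_lt_one (show 0 < r / 8 by positivity)
        (show (1 / 2 : ℝ) < 1 by norm_num)
      refine ⟨ball x r, ball_mem_nhds x hr0, ?_⟩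
      have hf := (finite_cells (v := v) x r n₀).preimage
        (f := fun i : {a : ℕ × (Fin 3 → ℤ) // Sel v N K a.1 a.2} => i.1)
        (Subtype.val_injective.injOn)
      refine hf.subset ?_
      rintro i ⟨z, hz1, hz2⟩
      rw [cube_eq (rad_pos _).le] at hz1
      refine ⟨?_, ⟨z, hz1, hz2⟩⟩
      by_contra hc
      push Not at hc
      have hz3 := sel_upper i.2 (by omega) hz1
      have hz4 : infDist x Nᶜ ≤ infDist z Nᶜ + dist x z := infDist_le_infDist_add_dist
      rw [mem_ball, dist_comm] at hz2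
      have h5 : rad i.1.1 ≤ (1 / 2) ^ n₀ := by
        unfold rad
        rw [one_div_pow]
        apply one_div_le_one_div_of_le (by positivity)
        exact pow_le_pow_right₀ (by norm_num) (by omega)
      linarith
    · -- no cell near `x`
      have hxK : x ∈ Ω \ K := ⟨hx, fun h => hxN (hKN h)⟩
      obtain ⟨r, hr, hrK⟩ := Metric.isOpen_iff.mp hK x hxK
      refine ⟨ball x (r / 2), ball_mem_nhds x (by positivity), ?_⟩
      convert Set.finite_empty
      rw [Set.eq_empty_iff_forall_notMem]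
      rintro i ⟨z, hz1, hz2⟩
      rw [cube_eq (rad_pos _).le] at hz1
      obtain ⟨y, hy1, hy2⟩ := i.2.2.2
      have h1 := sel_lower hNc i.2 hz1
      have h2 : infDist z Nᶜ ≤ dist z x := infDist_le_dist_of_mem hxN
      rw [mem_ball] at hz2
      rw [mem_closedBall] at hz1 hy1
      have h3 : dist y x < r := by
        have h4 := dist_triangle y z x
        have h5 := dist_triangle_right y z (cen v i.1.1 i.1.2)
        linarith
      exact (hrK (mem_ball.mpr h3)).2 hy2

end Vale.Agent.P073.H739
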