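import Vale.Agent.P073.H739.Boxes
import Vale.Agent.P073.H655.RowsT

/-!
# P073, row B'
-/

namespace Vale.Agent.P073.H739

/-- **Row B'** -/
theorem specBoxesIn : Vale.Agent.P073.H655.SpecBoxesIn := by
  intro Ω K N _ hb hN hKN hNΩ hK hP
  exact boxes_in hb hN hKN hNΩ hK hP

end Vale.Agent.P073.H739
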