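import Vale.Agent.P073.H739.Van1
import Vale.Agent.P073.PK.Sob560a
import Vale.Agent.P073.H655.RowsT

/-!
# P073, row V
-/

namespace Vale.Agent.P073.H739

open MeasureTheory Set Filter Topology Metric
open Vale.Agent.P073.HB
open Vale.Agent.P073.St (V Mat)
open scoped ENNReal NNReal

theorem qmp_shear (v : V) (ν : Measure ℝ) [SFinite ν] :
    Measure.QuasiMeasurePreserving (fun p : ℝ × V => p.2 + p.1 • v) (ν.prod volume)
      (volume : Measure V) := by
  have h1 := (measurePreserving_shear (μ := (volume : Measure V)) v ν).quasiMeasurePreserving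
  have h2 : Measure.QuasiMeasurePreserving (Prod.snd : ℝ × V → V) (ν.prod volume)
    (volume : Measure V) := Measure.quasiMeasurePreserving_snd
  exact h2.comp h1

theorem ae_zero_dir {Ω : Set V} {u g : V → ℝ} {e : V} {N : Set ℝ} (hΩ : IsOpen Ω)
    (hu : ContinuousOn u Ω) (hg : AEStronglyMeasurable g (volume.restrict Ω)) (he : ‖e‖ ≤ 1)
    (hgood : ∀ c : ℝ, ∀ᵐ x : V, (∀ s ∈ Icc (0 : ℝ) 1, x + s • (c • e) ∈ Ω) →
      GoodDir u (fun y => c * g y) x (c • e)) (hN0 : volume N = 0) :
    ∀ᵐ x : V, x ∈ Ω → u x ∈ N → g x = 0 := by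
  -- a measurable null set
  set N' := toMeasurable volume N with hN'
  have hNm : MeasurableSet N' := measurableSet_toMeasurable _ _
  have hNn : volume N' = 0 := by rw [hN', measure_toMeasurable, hN0]
  have hNN : N ⊆ N' := subset_toMeasurable _ _
  -- measurable versions
  have hua : AEMeasurable u (volume.restrict Ω) := hu.aemeasurable hΩ.measurableSet
  have hga : AEMeasurable g (volume.restrict Ω) := hg.aemeasurable
  set u' := hua.mk u
  set g' := hga.mk g
  have hu'm : Measurable u' := hua.measurable_mk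
  have hg'm : Measurable g' := hga.measurable_mk
  have heq : ∀ᵐ y : V, y ∈ Ω → u y = u' y ∧ g y = g' y := by
    have h1 := (ae_restrict_iff' hΩ.measurableSet).mp hua.ae_eq_mk
    have h2 := (ae_restrict_iff' hΩ.measurableSet).mp hga.ae_eq_mk
    filter_upwards [h1, h2] with y hy1 hy2 hy
    exact ⟨hy1 hy, hy2 hy⟩
  set S : Set V := {y | u' y ∈ N' → g' y = 0} with hS
  have hSm : MeasurableSet S := by
    have : S = (u' ⁻¹' N')ᶜ ∪ g' ⁻¹' {0} := by
      ext y
      simp only [hS, mem_union, mem_compl_iff, mem_preimage, mem_singleton_iff]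
      exact imp_iff_not_or
    rw [this]
    exact ((hu'm hNm).compl).union (hg'm (measurableSet_singleton 0))
  -- local statement
  have hloc : ∀ y₀ ∈ Ω, ∃ r > 0, ∀ᵐ y : V, y ∈ ball y₀ r → y ∈ S := by
    intro y₀ hy₀
    obtain ⟨r, hr, hrΩ⟩ := Metric.isOpen_iff.mp hΩ y₀ hy₀
    set c : ℝ := r / 4 with hc
    have hc0 : 0 < c := by positivity
    set v : V := c • e with hv
    have hvn : ‖v‖ ≤ c := by
      rw [hv, norm_smul, Real.norm_eq_abs, abs_of_pos hc0]
      calc c * ‖e‖ ≤ c * 1 := by gcongr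
        _ = c := mul_one c
    have hmove : ∀ s ∈ Icc (0 : ℝ) 1, ‖s • v‖ ≤ c := by
      intro s hs
      rw [norm_smul, Real.norm_eq_abs, abs_of_nonneg hs.1]
      calc s * ‖v‖ ≤ 1 * c := mul_le_mul hs.2 hvn (norm_nonneg _) zero_le_one
        _ = c := one_mul c
    have hseg : ∀ x ∈ ball y₀ (r / 2), ∀ s ∈ Icc (0 : ℝ) 1, x + s • v ∈ Ω := by
      intro x hx s hs
      apply hrΩ
      rw [mem_ball] at hx ⊢
      have h1 : dist (x + s • v) x ≤ c := by
        rw [dist_eq_norm, add_sub_cancel_left]
        exact hmove s hs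
      have h2 := dist_triangle (x + s • v) x y₀
      rw [hc] at h1
      linarith
    set ν : Measure ℝ := volume.restrict (Ioo (0 : ℝ) 1) with hν
    -- for almost every `x`, almost every `s`
    have h1 : ∀ᵐ x : V, ∀ᵐ s ∂ν, x ∈ ball y₀ (r / 2) → x + s • v ∈ S := by
      have h2 : ∀ᵐ x : V, ∀ᵐ s ∂ν, x + s • v ∈ Ω →
          u (x + s • v) = u' (x + s • v) ∧ g (x + s • v) = g' (x + s • v) := by
        have h3 := (qmp_shear v ν).ae heq
        have h4 : ∀ᵐ q : V × ℝ ∂((volume : Measure V).prod ν), q.1 + q.2 • v ∈ Ω →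
            u (q.1 + q.2 • v) = u' (q.1 + q.2 • v) ∧ g (q.1 + q.2 • v) = g' (q.1 + q.2 • v) :=
          (Measure.measurePreserving_swap (μ := (volume : Measure V))
            (ν := ν)).quasiMeasurePreserving.ae h3
        exact Measure.ae_ae_of_ae_prod h4
      filter_upwards [hgood c, h2] with x hx1 hx2
      by_cases hxB : x ∈ ball y₀ (r / 2)
      · obtain ⟨hi, hd⟩ := hx1 (hseg x hxB)
        have h5 := ae_zero_line (h := fun t => u (x + t • v)) hi (by
          intro t ht
          have := hd t ht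
          simp only [zero_smul, add_zero]
          exact this) hNn
        have h6 : ∀ᵐ s ∂ν, s ∈ Ioo (0 : ℝ) 1 := ae_restrict_mem measurableSet_Ioo
        filter_upwards [ae_restrict_of_ae h5, h6, hx2] with s hs1 hs2 hs3 _
        obtain ⟨e1, e2⟩ := hs3 (hseg x hxB s (Ioo_subset_Icc_self hs2))
        intro hmem
        have h7 := hs1 hs2 (by
          show u (x + s • v) ∈ N'
          rw [e1]
          exact hmem)
        rw [← e2]
        exact (mul_eq_zero.mp h7).resolve_left hc0.ne'
      · filter_upwards with s hs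
        exact absurd hs hxB
    have hTm : MeasurableSet {q : V × ℝ | q.1 ∈ ball y₀ (r / 2) → q.1 + q.2 • v ∈ S} := by
      have : {q : V × ℝ | q.1 ∈ ball y₀ (r / 2) → q.1 + q.2 • v ∈ S} =
          (Prod.fst ⁻¹' (ball y₀ (r / 2)))ᶜ ∪ (fun q : V × ℝ => q.1 + q.2 • v) ⁻¹' S := by
        ext q
        simp only [mem_union, mem_compl_iff, mem_preimage]
        exact imp_iff_not_or
      rw [this]
      refine (measurable_fst measurableSet_ball).compl.union ?_
      exact (by fun_prop : Measurable fun q : V × ℝ => q.1 + q.2 • v) hSm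
    have h8 : ∀ᵐ q : V × ℝ ∂((volume : Measure V).prod ν),
        q.1 ∈ ball y₀ (r / 2) → q.1 + q.2 • v ∈ S :=
      (Measure.ae_prod_iff_ae_ae hTm).mpr h1
    have h9 : ∀ᵐ q : ℝ × V ∂(ν.prod (volume : Measure V)),
        q.2 ∈ ball y₀ (r / 2) → q.2 + q.1 • v ∈ S :=
      (Measure.measurePreserving_swap (μ := ν)
        (ν := (volume : Measure V))).quasiMeasurePreserving.ae h8
    have h10 := Measure.ae_ae_of_ae_prod h9
    have hν0 : ν ≠ 0 := by
      rw [hν, Ne, Measure.restrict_eq_zero, Real.volume_Ioo]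
      simp
    have : NeZero ν := ⟨hν0⟩
    obtain ⟨s, hs1, hs2⟩ := (h10.and (ae_restrict_mem (μ := (volume : Measure ℝ))
      (measurableSet_Ioo (a := (0 : ℝ)) (b := 1)))).exists
    refine ⟨r / 4, by positivity, ?_⟩
    have h11 := (measurePreserving_sub_right (volume : Measure V)
      (s • v)).quasiMeasurePreserving.ae hs1
    filter_upwards [h11] with y hy hyB
    have h12 : y - s • v ∈ ball y₀ (r / 2) := by
      rw [mem_ball] at hyB ⊢
      have h13 : dist (y - s • v) y ≤ c := by
        rw [dist_eq_norm]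
        have : y - s • v - y = -(s • v) := by abel
        rw [this, norm_neg]
        exact hmove s (Ioo_subset_Icc_self hs2)
      have h14 := dist_triangle (y - s • v) y y₀
      rw [hc] at h13
      linarith
    have h15 := hy h12
    simpa using h15
  -- conclusion
  have hfin : volume {y : V | y ∈ Ω ∧ y ∉ S} = 0 := by
    refine measure_null_of_locally_null _ ?_
    rintro y₀ ⟨hy₀, -⟩
    obtain ⟨r, hr, h⟩ := hloc y₀ hy₀
    refine ⟨{y : V | y ∈ Ω ∧ y ∉ S} ∩ ball y₀ r, ?_, ?_⟩
    · exact inter_mem_nhdsWithin _ (ball_mem_nhds y₀ hr)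
    · rw [ae_iff] at h
      refine measure_mono_null ?_ h
      rintro y ⟨⟨-, hy1⟩, hy2⟩
      exact fun hcon => hy1 (hcon hy2)
  have hae : ∀ᵐ y : V, ¬ (y ∈ Ω ∧ y ∉ S) := by
    rw [ae_iff]
    simpa only [not_not] using hfin
  filter_upwards [hae, heq] with y hy1 hy2 hyΩ hyN
  obtain ⟨e1, e2⟩ := hy2 hyΩ
  have h16 : y ∈ S := by
    by_contra hcon
    exact hy1 ⟨hyΩ, hcon⟩
  rw [e2]
  apply h16
  rw [← e1]
  exact hNN hyN

/-- **Row V** -/
theorem specVan : Vale.Agent.P073.H655.SpecVan := by
  intro p Ω f F i N hp hΩ hf hc hN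
  have hv := PK.volume_ne_top_of_domain hΩ
  have hW := PK.IsSob.weakDeriv hp hv hf
  have hL := PK.IsSob.locallyIntegrableOn_cl hp hv hf
  have key : ∀ j : Fin 3, ∀ᵐ x : V, x ∈ Ω → f x i ∈ N → F x i j = 0 := by
    intro j
    refine ae_zero_dir (u := fun x => f x i) (g := fun x => F x i j) (e := Pi.single j 1) hΩ.1
      ((continuous_apply i).comp_continuousOn hc) (hf.2.1 i j).1 ?_ ?_ hN
    · rw [pi_norm_le_iff_of_nonneg zero_le_one]
      intro l
      by_cases hl : l = j
      · subst hl
        simp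
      · simp [Pi.single_eq_of_ne hl]
    · intro c
      have hval : ∀ y : V, AB.cl (F y) (c • (Pi.single j 1 : V)) i = c * F y i j := by
        intro y
        rw [PK.cl_apply]
        rw [Finset.sum_eq_single j]
        · simp [mul_comm]
        · intro l _ hl
          simp [Pi.single_eq_of_ne hl]
        · intro h
          exact absurd (Finset.mem_univ j) h
      filter_upwards [ae_goodSeg (μ := (volume : Measure V)) hΩ.1 hc hL hW
        (c • (Pi.single j 1 : V))] with x hx hseg
      obtain ⟨hi, hd⟩ := hx hseg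
      set L : V →L[ℝ] ℝ := ContinuousLinearMap.proj i
      have hiL : ∀ t ∈ Icc (0 : ℝ) 1, IntervalIntegrable
          (fun s : ℝ => AB.cl (F (x + s • (c • (Pi.single j 1 : V)))) (c • (Pi.single j 1 : V)))
          volume 0 t := by
        intro t ht
        refine hi.mono_set ?_
        rw [uIcc_of_le zero_le_one, uIcc_of_le ht.1]
        exact Icc_subset_Icc le_rfl ht.2
      refine ⟨?_, ?_⟩
      · have h1 : IntervalIntegrable (fun s : ℝ =>
            L (AB.cl (F (x + s • (c • (Pi.single j 1 : V)))) (c • (Pi.single j 1 : V))))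
            volume 0 1 := ⟨L.integrable_comp hi.1, L.integrable_comp hi.2⟩
        refine h1.congr (fun s _ => ?_)
        exact hval _
      · intro t ht
        have h2 := congrFun (hd t ht) i
        have h3 := L.intervalIntegral_comp_comm (hiL t ht)
        show f (x + t • (c • (Pi.single j 1 : V))) i = f x i + _
        rw [h2, Pi.add_apply]
        congr 1
        change L (∫ s in (0 : ℝ)..t, AB.cl (F (x + s • (c • (Pi.single j 1 : V))))
          (c • (Pi.single j 1 : V))) = _
        rw [← h3]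
        refine intervalIntegral.integral_congr fun s _ => ?_
        exact hval _
  filter_upwards [ae_all_iff.mpr key] with x hx hxΩ hxN j
  exact hx j hxΩ hxN

end Vale.Agent.P073.H739
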