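import Mathlib

/-!
# P073, row B, part 1: average of a function over the planes of a random grid
-/

namespace Vale.Agent.P073.H739

open MeasureTheory Set Filter Topology Metric
open scoped ENNReal

/-- the plane of the grid `t + 2⁻ⁿ ℤ` next to `x` (below for `s = 0`, above for `s = 1`). -/
noncomputable def posn (n : ℕ) (s : ℝ) (t x : ℝ) : ℝ :=
  t + (⌊(x - t) * 2 ^ n⌋ + s) / 2 ^ n

theorem measurable_posn (n : ℕ) (s : ℝ) : Measurable fun p : ℝ × ℝ => posn n s p.1 p.2 := by
  unfold posn
  fun_prop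

/-- the one dimensional average. -/
theorem avg1 (n : ℕ) {s : ℝ} (h0 : 0 ≤ s) (h1 : s ≤ 1) {G : ℝ → ℝ≥0∞} (hG : Measurable G) :
    ∫⁻ t in Icc (0 : ℝ) 1, ∫⁻ x, G (posn n s t x) ≤ 3 * ∫⁻ τ, G τ := by
  set a : ℝ → ℝ := fun y => (⌊y * 2 ^ n⌋ + s) / 2 ^ n with ha
  have ham : Measurable a := by
    simp only [ha]
    fun_prop
  have hp : (0 : ℝ) < 2 ^ n := by positivity
  have hp1 : (1 : ℝ) ≤ 2 ^ n := one_le_pow₀ (by norm_num)
  have ha1 : ∀ y, y - 1 ≤ a y := by
    intro y
    have := (Int.sub_one_lt_floor (y * 2 ^ n)).le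
    simp only [ha]
    rw [le_div_iff₀ hp]
    nlinarith
  have ha2 : ∀ y, a y ≤ y + 1 := by
    intro y
    have := Int.floor_le (y * 2 ^ n)
    simp only [ha]
    rw [div_le_iff₀ hp]
    nlinarith
  -- translate in `x`
  have e1 : ∀ t : ℝ, ∫⁻ x, G (posn n s t x) = ∫⁻ y, G (t + a y) := by
    intro t
    exact lintegral_sub_right_eq_self (fun y => G (t + a y)) t
  simp only [e1]
  -- swap
  rw [lintegral_lintegral_swap (by
    have : Measurable (Function.uncurry fun (t y : ℝ) => G (t + a y)) := by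
      unfold Function.uncurry
      exact hG.comp (measurable_fst.add (ham.comp measurable_snd))
    exact this.aemeasurable)]
  -- translate in `t`
  have e2 : ∀ y : ℝ, ∫⁻ t in Icc (0 : ℝ) 1, G (t + a y) =
      ∫⁻ τ, (Icc (0 : ℝ) 1).indicator (fun _ => (1 : ℝ≥0∞)) (τ - a y) * G τ := by
    intro y
    rw [← lintegral_indicator measurableSet_Icc]
    have h3 := lintegral_add_right_eq_self (μ := (volume : Measure ℝ))
      (fun τ => (Icc (0 : ℝ) 1).indicator (fun _ => (1 : ℝ≥0∞)) (τ - a y) * G τ) (a y)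
    rw [← h3]
    refine lintegral_congr fun t => ?_
    by_cases ht : t ∈ Icc (0 : ℝ) 1
    · simp [ht, -mem_Icc]
    · simp [ht, -mem_Icc]
  simp only [e2]
  rw [lintegral_lintegral_swap (by
    have h4 : Measurable fun p : ℝ × ℝ =>
        (Icc (0 : ℝ) 1).indicator (fun _ => (1 : ℝ≥0∞)) (p.2 - a p.1) * G p.2 := by
      refine Measurable.mul ?_ (hG.comp measurable_snd)
      exact (measurable_const.indicator measurableSet_Icc).comp
        (measurable_snd.sub (ham.comp measurable_fst))
    exact h4.aemeasurable)]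
  rw [← lintegral_const_mul _ hG]
  refine lintegral_mono fun τ => ?_
  have h5 : ∀ y : ℝ, (Icc (0 : ℝ) 1).indicator (fun _ => (1 : ℝ≥0∞)) (τ - a y) * G τ ≤
      (Icc (τ - 2) (τ + 1)).indicator (fun _ => G τ) y := by
    intro y
    by_cases hy : τ - a y ∈ Icc (0 : ℝ) 1
    · have : y ∈ Icc (τ - 2) (τ + 1) := by
        have := ha1 y
        have := ha2 y
        constructor <;> linarith [hy.1, hy.2]
      rw [indicator_of_mem hy, indicator_of_mem this, one_mul]
    · rw [indicator_of_notMem hy, zero_mul]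
      exact zero_le
  calc ∫⁻ y, (Icc (0 : ℝ) 1).indicator (fun _ => (1 : ℝ≥0∞)) (τ - a y) * G τ
      ≤ ∫⁻ y, (Icc (τ - 2) (τ + 1)).indicator (fun _ => G τ) y := lintegral_mono h5
    _ = G τ * volume (Icc (τ - 2) (τ + 1)) := by
        rw [lintegral_indicator measurableSet_Icc, lintegral_const, Measure.restrict_apply_univ]
    _ = 3 * G τ := by
        rw [Real.volume_Icc, mul_comm]
        congr 1
        rw [show τ + 1 - (τ - 2) = 3 by ring]
        simp

/-- the average in `ℝ³`. -/
theorem avg3 (n : ℕ) (k : Fin 3) {s : ℝ} (h0 : 0 ≤ s) (h1 : s ≤ 1) {g : (Fin 3 → ℝ) → ℝ≥0∞}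
    (hg : Measurable g) :
    ∫⁻ t in Icc (0 : ℝ) 1, ∫⁻ x : Fin 3 → ℝ, g (Function.update x k (posn n s t (x k))) ≤
      3 * ∫⁻ x, g x := by
  set e := MeasurableEquiv.piFinSuccAbove (fun _ : Fin 3 => ℝ) k with he
  have hmp := volume_preserving_piFinSuccAbove (fun _ : Fin 3 => ℝ) k
  have key : ∀ f : (Fin 3 → ℝ) → ℝ≥0∞, Measurable f →
      ∫⁻ x, f x = ∫⁻ y : Fin 2 → ℝ, ∫⁻ u : ℝ, f (k.insertNth (α := fun _ => ℝ) u y) := by
    intro f hf
    have h2 := (hmp.symm).lintegral_comp (f := f) hf
    rw [← h2, Measure.volume_eq_prod, lintegral_prod_symm _ (by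
      exact (hf.comp e.symm.measurable).aemeasurable)]
    rfl
  have hu : ∀ (t u : ℝ) (y : Fin 2 → ℝ),
      Function.update (k.insertNth (α := fun _ => ℝ) u y) k
        (posn n s t ((k.insertNth (α := fun _ => ℝ) u y) k)) =
      k.insertNth (α := fun _ => ℝ) (posn n s t u) y := by
    intro t u y
    rw [Fin.insertNth_apply_same]
    simp
  have hins : Measurable fun q : ℝ × (Fin 2 → ℝ) => k.insertNth (α := fun _ => ℝ) q.1 q.2 :=
    e.symm.measurable
  have hm1 : ∀ t : ℝ, Measurable fun x : Fin 3 → ℝ =>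
      g (Function.update x k (posn n s t (x k))) := by
    intro t
    refine hg.comp ?_
    refine measurable_pi_lambda _ fun l => ?_
    by_cases hl : l = k
    · subst hl
      simp only [Function.update_self]
      exact (measurable_posn n s).comp (measurable_const.prodMk (measurable_pi_apply _))
    · simp only [Function.update_of_ne hl]
      exact measurable_pi_apply _
  have e1 : ∀ t : ℝ, ∫⁻ x : Fin 3 → ℝ, g (Function.update x k (posn n s t (x k))) =
      ∫⁻ y : Fin 2 → ℝ, ∫⁻ u : ℝ, g (k.insertNth (α := fun _ => ℝ) (posn n s t u) y) := by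
    intro t
    rw [key _ (hm1 t)]
    simp only [hu]
  simp only [e1]
  have hm2 : Measurable fun p : (ℝ × (Fin 2 → ℝ)) × ℝ =>
      g (k.insertNth (α := fun _ => ℝ) (posn n s p.1.1 p.2) p.1.2) := by
    refine hg.comp (hins.comp (Measurable.prodMk ?_ ?_))
    · exact (measurable_posn n s).comp
        ((measurable_fst.comp measurable_fst).prodMk measurable_snd)
    · exact measurable_snd.comp measurable_fst
  rw [lintegral_lintegral_swap (by
    have h4 : Measurable fun p : ℝ × (Fin 2 → ℝ) =>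
        ∫⁻ u : ℝ, g (k.insertNth (α := fun _ => ℝ) (posn n s p.1 u) p.2) :=
      Measurable.lintegral_prod_right' hm2
    exact h4.aemeasurable)]
  rw [key g hg, ← lintegral_const_mul _ (by
    have h4 : Measurable fun y : Fin 2 → ℝ => ∫⁻ u : ℝ, g (k.insertNth (α := fun _ => ℝ) u y) := by
      have h5 : Measurable fun p : (Fin 2 → ℝ) × ℝ =>
          g (k.insertNth (α := fun _ => ℝ) p.2 p.1) := by
        exact hg.comp (hins.comp (measurable_snd.prodMk measurable_fst))
      exact Measurable.lintegral_prod_right' h5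
    exact h4)]
  refine lintegral_mono fun y => ?_
  have hG : Measurable fun u : ℝ => g (k.insertNth (α := fun _ => ℝ) u y) := by
    exact hg.comp (hins.comp (measurable_id.prodMk measurable_const))
  exact avg1 n h0 h1 hG

end Vale.Agent.P073.H739
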