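import Vale.Agent.P073.H739.Cells

/-!
# P073, row B: choice of the cubes
-/

namespace Vale.Agent.P073.H739

open MeasureTheory Set Filter Topology Metric
open Vale.Agent.P073.SQ (cube)
open Vale.Agent.P073.H880 (Boxes SpecBoxes)
open scoped ENNReal

/-- half open cell -/
def Cell (v : V3) (n : ℕ) (m : Fin 3 → ℤ) : Set V3 := {x | idx v n x = m}

theorem measurable_idx (v : V3) (n : ℕ) : Measurable (idx v n) := by
  refine measurable_pi_lambda _ fun l => ?_
  have h : Measurable fun x : V3 => (x l - v l) * 2 ^ n := by fun_prop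
  exact h.floor

theorem measurableSet_Cell (v : V3) (n : ℕ) (m : Fin 3 → ℤ) : MeasurableSet (Cell v n m) :=
  measurable_idx v n (measurableSet_singleton m)

theorem cen_sub (v : V3) (n : ℕ) (m : Fin 3 → ℤ) (l : Fin 3) :
    cen v n m l - rad n = v l + (m l) / 2 ^ n := by
  have h := two_rad n
  have : (m l : ℝ) / 2 ^ n = m l * (1 / 2 ^ n) := by ring
  rw [this, ← h]
  unfold cen
  ring

theorem cen_add (v : V3) (n : ℕ) (m : Fin 3 → ℤ) (l : Fin 3) :
    cen v n m l + rad n = v l + (m l + 1) / 2 ^ n := by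
  have h := two_rad n
  have : ((m l : ℝ) + 1) / 2 ^ n = (m l + 1) * (1 / 2 ^ n) := by ring
  rw [this, ← h]
  unfold cen
  ring

theorem Cell_ae (v : V3) (n : ℕ) (m : Fin 3 → ℤ) :
    (Cell v n m : Set V3) =ᵐ[volume] cube (cen v n m) (rad n) := by
  have h1 : Cell v n m = Set.pi univ fun l =>
      Ico (v l + (m l) / 2 ^ n) (v l + (m l + 1) / 2 ^ n) := by
    ext x
    have hp : (0 : ℝ) < 2 ^ n := by positivity
    have e1 : x ∈ Cell v n m ↔ ∀ l, ⌊(x l - v l) * 2 ^ n⌋ = m l := funext_iff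
    rw [e1]
    simp only [Set.mem_pi, mem_univ, forall_const, Int.floor_eq_iff, mem_Ico]
    refine forall_congr' fun l => ?_
    refine and_congr ?_ ?_
    · rw [← le_sub_iff_add_le', div_le_iff₀ hp]
    · rw [← sub_lt_iff_lt_add' (a := x l), lt_div_iff₀ hp]
  have h2 : cube (cen v n m) (rad n) = Icc (fun l => v l + (m l) / 2 ^ n)
      (fun l => v l + (m l + 1) / 2 ^ n) := by
    ext x
    have e1 : x ∈ cube (cen v n m) (rad n) ↔ ∀ l, |x l - cen v n m l| ≤ rad n := Iff.rfl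
    rw [e1]
    simp only [mem_Icc, Pi.le_def, ← forall_and]
    refine forall_congr' fun l => ?_
    rw [← cen_sub, ← cen_add, abs_le]
    constructor <;> rintro ⟨h3, h4⟩ <;> constructor <;> linarith
  rw [h1, h2]
  exact Measure.univ_pi_Ico_ae_eq_Icc

theorem tsum_cells (v : V3) (n : ℕ) (F : V3 → ℝ≥0∞) :
    ∑' m, ∫⁻ x in Cell v n m, F x ≤ ∫⁻ x, F x := by
  rw [← lintegral_iUnion (fun m => measurableSet_Cell v n m)]
  · exact setLIntegral_le_lintegral _ _
  · intro m m' hm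
    refine Set.disjoint_left.mpr fun x hx hx' => hm ?_
    exact Eq.trans (Eq.symm hx) hx'

/-- one face of a selected cell -/
theorem face_eq {v : V3} {N K : Set V3} (hNc : Nᶜ.Nonempty) {n : ℕ} {m : Fin 3 → ℤ}
    (h : Sel v N K n m) (H : V3 → ℝ≥0∞) (k : Fin 3) {s σ : ℝ}
    (hs : (s = 0 ∧ σ = -1) ∨ (s = 1 ∧ σ = 1)) :
    ∫⁻ x in cube (cen v n m) (rad n), H (Function.update x k (cen v n m k + σ * rad n)) =
      ∫⁻ x in Cell v n m, (A (fun x => infDist x Nᶜ) n).indicator H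
        (Function.update x k (posn n s (v k) (x k))) := by
  rw [← setLIntegral_congr (Cell_ae v n m)]
  refine setLIntegral_congr_fun (measurableSet_Cell v n m) fun x hx => ?_
  have hx1 : idx v n x = m := hx
  have hpos : posn n s (v k) (x k) = cen v n m k + σ * rad n := by
    have hk : ⌊(x k - v k) * 2 ^ n⌋ = m k := congrFun hx1 k
    unfold posn
    rw [hk]
    rcases hs with ⟨rfl, rfl⟩ | ⟨rfl, rfl⟩
    · have := cen_sub v n m k
      rw [add_zero, ← this]
      ring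
    · have := cen_add v n m k
      rw [← this]
      ring
  rw [hpos, indicator_of_mem]
  refine sel_A hNc h ?_
  have hxc : x ∈ closedBall (cen v n m) (rad n) := by
    have := mem_closedBall_idx v x n
    rwa [hx1] at this
  rw [← cube_eq (rad_pos n).le] at hxc ⊢
  intro l
  by_cases hl : l = k
  · subst hl
    rw [Function.update_self, add_sub_cancel_left, abs_mul, abs_of_pos (rad_pos n)]
    have : |σ| = 1 := by
      rcases hs with ⟨-, rfl⟩ | ⟨-, rfl⟩ <;> norm_num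
    rw [this, one_mul]
  · rw [Function.update_of_ne hl]
    exact hxc l

/-- the sum over all faces of all selected cells -/
theorem faces_le {v : V3} {N K : Set V3} (hNc : Nᶜ.Nonempty) (H : V3 → ℝ≥0∞) (B : ℝ≥0∞)
    (hv : ∀ k : Fin 3, ∑' n, ((∫⁻ x, (A (fun x => infDist x Nᶜ) n).indicator H
        (Function.update x k (posn n 0 (v k) (x k)))) +
      (∫⁻ x, (A (fun x => infDist x Nᶜ) n).indicator H
        (Function.update x k (posn n 1 (v k) (x k))))) ≤ B) :
    ∑' i : {a : ℕ × (Fin 3 → ℤ) // Sel v N K a.1 a.2}, ∑ k, ∑ σ ∈ ({1, -1} : Finset ℝ),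
      ∫⁻ x in cube (cen v i.1.1 i.1.2) (rad i.1.1),
        H (Function.update x k (cen v i.1.1 i.1.2 k + σ * rad i.1.1)) ≤ 3 * B := by
  classical
  set J : ℕ → (Fin 3 → ℤ) → Fin 3 → ℝ → ℝ≥0∞ := fun n m k s =>
    ∫⁻ x in Cell v n m, (A (fun x => infDist x Nᶜ) n).indicator H
        (Function.update x k (posn n s (v k) (x k))) with hJ
  have h1 : ∀ i : {a : ℕ × (Fin 3 → ℤ) // Sel v N K a.1 a.2},
      ∑ k, ∑ σ ∈ ({1, -1} : Finset ℝ), ∫⁻ x in cube (cen v i.1.1 i.1.2) (rad i.1.1),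
        H (Function.update x k (cen v i.1.1 i.1.2 k + σ * rad i.1.1)) =
      ∑ k, (J i.1.1 i.1.2 k 0 + J i.1.1 i.1.2 k 1) := by
    intro i
    refine Finset.sum_congr rfl fun k _ => ?_
    rw [Finset.sum_pair (by norm_num : (1 : ℝ) ≠ -1),
      face_eq hNc i.2 H k (Or.inr ⟨rfl, rfl⟩), face_eq hNc i.2 H k (Or.inl ⟨rfl, rfl⟩), add_comm]
  rw [tsum_congr h1]
  calc ∑' i : {a : ℕ × (Fin 3 → ℤ) // Sel v N K a.1 a.2},
        ∑ k, (J i.1.1 i.1.2 k 0 + J i.1.1 i.1.2 k 1)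
      ≤ ∑' a : ℕ × (Fin 3 → ℤ), ∑ k, (J a.1 a.2 k 0 + J a.1 a.2 k 1) :=
        ENNReal.tsum_comp_le_tsum_of_injective Subtype.val_injective
          (fun a : ℕ × (Fin 3 → ℤ) => ∑ k, (J a.1 a.2 k 0 + J a.1 a.2 k 1))
    _ = ∑' n, ∑' m, ∑ k, (J n m k 0 + J n m k 1) :=
        ENNReal.tsum_prod (f := fun n m => ∑ k, (J n m k 0 + J n m k 1))
    _ = ∑' n, ∑ k, (∑' m, J n m k 0 + ∑' m, J n m k 1) := by
        refine tsum_congr fun n => ?_
        rw [Summable.tsum_finsetSum (fun _ _ => ENNReal.summable)]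
        refine Finset.sum_congr rfl fun k _ => ?_
        rw [ENNReal.tsum_add]
    _ ≤ ∑' n, ∑ k, ((∫⁻ x, (A (fun x => infDist x Nᶜ) n).indicator H
        (Function.update x k (posn n 0 (v k) (x k)))) +
      (∫⁻ x, (A (fun x => infDist x Nᶜ) n).indicator H
        (Function.update x k (posn n 1 (v k) (x k))))) := by
        refine ENNReal.tsum_le_tsum fun n => Finset.sum_le_sum fun k _ => ?_
        exact add_le_add (tsum_cells v n _) (tsum_cells v n _)
    _ = ∑ k, ∑' n, ((∫⁻ x, (A (fun x => infDist x Nᶜ) n).indicator H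
        (Function.update x k (posn n 0 (v k) (x k)))) +
      (∫⁻ x, (A (fun x => infDist x Nᶜ) n).indicator H
        (Function.update x k (posn n 1 (v k) (x k))))) := by
        rw [Summable.tsum_finsetSum (fun _ _ => ENNReal.summable)]
    _ ≤ ∑ _k : Fin 3, B := Finset.sum_le_sum fun k _ => hv k
    _ = 3 * B := by simp

/-- choice of the origin. -/
theorem exists_origin {K N : Set V3} (hP : ∀ k : Fin 3, volume ((fun x : V3 => x k) '' K) = 0)
    (hN : IsOpen N) (hNc : Nᶜ.Nonempty) {H : V3 → ℝ≥0∞} (hH : Measurable H) :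
    ∃ v : V3, (∀ x ∈ K, ∀ (n : ℕ) (l : Fin 3) (q : ℤ), (x l - v l) * 2 ^ n ≠ q) ∧
      ∀ k : Fin 3, ∑' n, ((∫⁻ x, (A (fun x => infDist x Nᶜ) n).indicator H
        (Function.update x k (posn n 0 (v k) (x k)))) +
      (∫⁻ x, (A (fun x => infDist x Nᶜ) n).indicator H
        (Function.update x k (posn n 1 (v k) (x k))))) ≤ 42 * ∫⁻ x in N, H x := by
  have hd : Measurable fun x : V3 => infDist x Nᶜ := (continuous_infDist_pt Nᶜ).measurable
  have hN' : ∀ x : V3, 0 < infDist x Nᶜ → x ∈ N := by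
    intro x hx
    rw [← (hN.isClosed_compl).notMem_iff_infDist_pos hNc] at hx
    simpa using hx
  have h1 := fun k => exists_coord hd hH hN' k (null_bad (hP k))
  choose v hv1 hv2 using h1
  refine ⟨v, fun x hx n l q hq => hv1 l ⟨x l, ⟨x, hx, rfl⟩, n, q, hq⟩, hv2⟩

theorem compl_nonempty {Ω N : Set V3} (hb : Bornology.IsBounded Ω) (hNΩ : N ⊆ Ω) :
    Nᶜ.Nonempty := by
  rw [nonempty_compl]
  intro h
  have : Bornology.IsBounded (univ : Set V3) := by
    rw [← h]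
    exact hb.subset hNΩ
  exact NormedSpace.unbounded_univ ℝ V3 this

/-- the cubes inside a given neighbourhood, without estimates. -/
theorem boxes_in {Ω K N : Set V3} (hb : Bornology.IsBounded Ω) (hN : IsOpen N)
    (hKN : K ⊆ N) (hNΩ : N ⊆ Ω) (hK : IsOpen (Ω \ K))
    (hP : ∀ k : Fin 3, volume ((fun x : V3 => x k) '' K) = 0) :
    ∃ W : Boxes Ω K, ∀ i, cube (W.c i) (W.ρ i) ⊆ N := by
  have hNc := compl_nonempty hb hNΩ
  obtain ⟨v, hv, -⟩ := exists_origin hP hN hNc (H := fun _ => 0) measurable_const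
  refine ⟨mkBoxes v hN hNΩ hNc hKN hK hv, fun i => ?_⟩
  show cube (cen v i.1.1 i.1.2) (rad i.1.1) ⊆ N
  rw [cube_eq (rad_pos _).le]
  exact sel_sub i.2

/-- the form with a neighbourhood and the estimates. -/
theorem boxes_est {Ω K : Set V3} {H : V3 → ℝ≥0∞} {ε : ℝ≥0∞} {O : Set V3} (hΩ : IsOpen Ω)
    (hb : Bornology.IsBounded Ω) (hKΩ : K ⊆ Ω) (hK : IsOpen (Ω \ K)) (hO : IsOpen O) (hKO : K ⊆ O)
    (hP : ∀ k : Fin 3, volume ((fun x : V3 => x k) '' K) = 0) (hH : Measurable H)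
    (hHi : ∫⁻ x in Ω, H x ≠ ⊤) (hε : ε ≠ 0) :
    ∃ W : Boxes Ω K, (∀ i, cube (W.c i) (W.ρ i) ⊆ O) ∧
      volume (⋃ i, cube (W.c i) (W.ρ i)) ≤ ε ∧
      ∫⁻ x in ⋃ i, cube (W.c i) (W.ρ i), H x ≤ ε ∧
      ∑' i, ∑ k, ∑ σ ∈ ({1, -1} : Finset ℝ),
        ∫⁻ x in cube (W.c i) (W.ρ i), H (Function.update x k (W.c i k + σ * W.ρ i)) ≤ ε := by
  obtain ⟨N₀, hN1, hN2, hN3, hN4, hN5⟩ := exists_nbhd (δ := ε / 126) hΩ hKΩ (null_of_proj hP) hHi
    (ENNReal.div_ne_zero.mpr ⟨hε, by norm_num⟩)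
  set N := N₀ ∩ O with hNdef
  have hNo : IsOpen N := hN1.inter hO
  have hNΩ : N ⊆ Ω := inter_subset_left.trans hN3
  have hKN : K ⊆ N := subset_inter hN2 hKO
  have hNc := compl_nonempty hb hNΩ
  obtain ⟨v, hv, hv2⟩ := exists_origin hP hNo hNc hH
  have hNH : ∫⁻ x in N, H x ≤ ε / 126 := (lintegral_mono_set inter_subset_left).trans hN5
  have hd1 : ε / 126 ≤ ε := by
    calc ε / 126 ≤ ε / 1 := ENNReal.div_le_div_left (by norm_num) _
      _ = ε := div_one _
  have hsub : ∀ i : {a : ℕ × (Fin 3 → ℤ) // Sel v N K a.1 a.2},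
      cube (cen v i.1.1 i.1.2) (rad i.1.1) ⊆ N := by
    intro i
    rw [cube_eq (rad_pos _).le]
    exact sel_sub i.2
  have hU : (⋃ i : {a : ℕ × (Fin 3 → ℤ) // Sel v N K a.1 a.2},
      cube (cen v i.1.1 i.1.2) (rad i.1.1)) ⊆ N := iUnion_subset hsub
  refine ⟨mkBoxes v hNo hNΩ hNc hKN hK hv, ?_, ?_, ?_, ?_⟩
  · exact fun i => (hsub i).trans inter_subset_right
  · exact (measure_mono (hU.trans inter_subset_left)).trans (hN4.trans hd1)
  · exact (lintegral_mono_set hU).trans (hNH.trans hd1)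
  · have h1 := faces_le (K := K) hNc H (42 * ∫⁻ x in N, H x) hv2
    refine h1.trans ?_
    calc 3 * (42 * ∫⁻ x in N, H x) ≤ 3 * (42 * (ε / 126)) := by gcongr
      _ = 126 * (ε / 126) := by rw [← mul_assoc]; norm_num
      _ = ε := ENNReal.mul_div_cancel (by norm_num) (by norm_num)

/-- **Row B.** -/
theorem specBoxes : SpecBoxes := by
  intro Ω K H ε hΩ hb hKΩ hK hP hH hHi hε
  obtain ⟨W, -, h1, h2, h3⟩ := boxes_est (O := univ) (ε := ENNReal.ofReal ε) hΩ hb hKΩ hK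
    isOpen_univ (subset_univ _) hP hH hHi (ENNReal.ofReal_pos.mpr hε).ne'
  exact ⟨W, h1, h2, h3⟩

end Vale.Agent.P073.H739
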