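import Vale.Agent.P073.H739.Avg

/-!
# P073, row B, part 2: the neighbourhood, the classes `D j`, `A n`, choice of the origin
-/

namespace Vale.Agent.P073.H739

open MeasureTheory Set Filter Topology Metric
open scoped ENNReal

/-- a set with null coordinate projection is null. -/
theorem null_of_proj {K : Set (Fin 3 → ℝ)}
    (hK : ∀ k : Fin 3, volume ((fun x : Fin 3 → ℝ => x k) '' K) = 0) : volume K = 0 := by
  have h := (Measure.quasiMeasurePreserving_eval (fun _ : Fin 3 => (volume : Measure ℝ)) 0)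
  have h1 := h.preimage_null (hK 0)
  refine measure_mono_null ?_ h1
  intro x hx
  exact ⟨x, hx, rfl⟩

theorem exists_nbhd {Ω K : Set (Fin 3 → ℝ)} {H : (Fin 3 → ℝ) → ℝ≥0∞} (hΩ : IsOpen Ω)
    (hKΩ : K ⊆ Ω) (hK : volume K = 0) (hH : ∫⁻ x in Ω, H x ≠ ⊤) {δ : ℝ≥0∞} (hδ : δ ≠ 0) :
    ∃ N : Set (Fin 3 → ℝ), IsOpen N ∧ K ⊆ N ∧ N ⊆ Ω ∧ volume N ≤ δ ∧ ∫⁻ x in N, H x ≤ δ := by
  obtain ⟨δ', hδ', hδ1⟩ := exists_pos_setLIntegral_lt_of_measure_lt hH hδ
  have hr : volume K < min δ δ' := by
    rw [hK]
    exact lt_min (pos_iff_ne_zero.mpr hδ) hδ'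
  obtain ⟨U, hU1, hU2, hU3⟩ := Set.exists_isOpen_lt_of_lt K _ hr
  refine ⟨U ∩ Ω, hU2.inter hΩ, subset_inter hU1 hKΩ, inter_subset_right, ?_, ?_⟩
  · exact (measure_mono inter_subset_left).trans (hU3.le.trans (min_le_left _ _))
  · have h1 : (volume.restrict Ω) (U ∩ Ω) < δ' := by
      refine lt_of_le_of_lt (Measure.restrict_apply_le _ _) ?_
      exact lt_of_le_of_lt (measure_mono inter_subset_left) (hU3.trans_le (min_le_right _ _))
    have h2 := (hδ1 _ h1).le
    rwa [Measure.restrict_restrict_of_subset inter_subset_right] at h2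

/-- disjoint dyadic classes of a function `d`. -/
def D (d : (Fin 3 → ℝ) → ℝ) : ℕ → Set (Fin 3 → ℝ)
  | 0 => {x | 1 ≤ d x}
  | (j + 1) => {x | 1 / 2 ^ (j + 1) ≤ d x ∧ d x < 1 / 2 ^ j}

/-- overlapping classes. -/
def A (d : (Fin 3 → ℝ) → ℝ) (n : ℕ) : Set (Fin 3 → ℝ) :=
  {x | 1 / 2 ^ n ≤ d x ∧ (n = 0 ∨ d x ≤ 4 / 2 ^ n)}

variable {d : (Fin 3 → ℝ) → ℝ}

theorem measurableSet_D (hd : Measurable d) (j : ℕ) : MeasurableSet (D d j) := by
  cases j with
  | zero => exact measurableSet_le measurable_const hd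
  | succ j => exact (measurableSet_le measurable_const hd).inter (measurableSet_lt hd measurable_const)

theorem measurableSet_A (hd : Measurable d) (n : ℕ) : MeasurableSet (A d n) := by
  unfold A
  by_cases hn : n = 0
  · simp only [hn, true_or, and_true]
    exact measurableSet_le measurable_const hd
  · simp only [hn, false_or]
    exact (measurableSet_le measurable_const hd).inter (measurableSet_le hd measurable_const)

theorem D_upper {j : ℕ} {x : Fin 3 → ℝ} (hj : j ≠ 0) (hx : x ∈ D d j) : d x < 2 / 2 ^ j := by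
  cases j with
  | zero => exact absurd rfl hj
  | succ j =>
    have := hx.2
    have h2 : (2 : ℝ) / 2 ^ (j + 1) = 1 / 2 ^ j := by
      rw [pow_succ]
      field_simp
    rw [h2]
    exact this

theorem D_lower {j : ℕ} {x : Fin 3 → ℝ} (hx : x ∈ D d j) : 1 / 2 ^ j ≤ d x := by
  cases j with
  | zero =>
    have h : 1 ≤ d x := hx
    simpa using h
  | succ j => exact hx.1

theorem pairwise_D : Pairwise (Function.onFun Disjoint (D d)) := by
  have key : ∀ i j : ℕ, i < j → Disjoint (D d i) (D d j) := by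
    intro i j hij
    refine Set.disjoint_left.mpr fun x hi hj => ?_
    have h1 := D_lower hi
    have h2 := D_upper (by omega) hj
    have h3 : (2 : ℝ) / 2 ^ j ≤ 1 / 2 ^ i := by
      rw [div_le_div_iff₀ (by positivity) (by positivity)]
      have : (2 : ℝ) ^ (i + 1) ≤ 2 ^ j := pow_le_pow_right₀ (by norm_num) (by omega)
      rw [pow_succ] at this
      linarith
    linarith
  intro i j hij
  rcases lt_or_gt_of_ne hij with h | h
  · exact key i j h
  · exact (key j i h).symm

theorem A_sub (n : ℕ) : A d n ⊆ D d n ∪ D d (n - 1) ∪ D d (n - 2) := by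
  intro x hx
  by_cases h : 1 ≤ d x
  · -- `n ≤ 2`
    have h0 : x ∈ D d 0 := h
    rcases hx.2 with hn | hn
    · subst hn
      exact Or.inl (Or.inl h0)
    · have hn2 : n ≤ 2 := by
        by_contra hc
        have h3 : (4 : ℝ) / 2 ^ n ≤ 4 / 2 ^ 3 := by
          apply div_le_div_of_nonneg_left (by norm_num) (by positivity)
          exact pow_le_pow_right₀ (by norm_num) (by omega)
        norm_num at h3
        linarith
      have : n - 2 = 0 := by omega
      rw [this]
      exact Or.inr h0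
  · push Not at h
    have hn0 : n ≠ 0 := by
      intro hn
      have := hx.1
      rw [hn] at this
      norm_num at this
      linarith
    have hn := hx.2.resolve_left hn0
    obtain ⟨m, rfl⟩ := Nat.exists_eq_succ_of_ne_zero hn0
    simp only [Nat.succ_eq_add_one] at *
    by_cases h1 : d x < 1 / 2 ^ m
    · exact Or.inl (Or.inl ⟨hx.1, h1⟩)
    · push Not at h1
      cases m with
      | zero => 
        norm_num at h1
        linarith
      | succ m =>
        by_cases h2 : d x < 1 / 2 ^ m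
        · exact Or.inl (Or.inr ⟨h1, h2⟩)
        · push Not at h2
          cases m with
          | zero =>
            norm_num at h2
            linarith
          | succ m =>
            refine Or.inr ⟨h2, ?_⟩
            refine lt_of_le_of_lt hn ?_
            have : (4 : ℝ) / 2 ^ (m + 1 + 1 + 1) = 1 / 2 ^ (m + 1) := by
              rw [pow_succ, pow_succ _ (m + 1)]
              field_simp
              norm_num
            rw [this]
            apply one_div_lt_one_div_of_lt (by positivity)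
            exact pow_lt_pow_right₀ (by norm_num) (by omega)

theorem tsum_pred (a : ℕ → ℝ≥0∞) : ∑' n, a (n - 1) ≤ 2 * ∑' n, a n := by
  rw [tsum_eq_zero_add' ENNReal.summable]
  have : ∀ n, a (n + 1 - 1) = a n := fun n => by simp
  simp only [this, two_mul]
  gcongr
  exact ENNReal.le_tsum _

theorem tsum_A_le (hd : Measurable d) (H : (Fin 3 → ℝ) → ℝ≥0∞) {N : Set (Fin 3 → ℝ)}
    (hN : ∀ x, 0 < d x → x ∈ N) :
    ∑' n, ∫⁻ x in A d n, H x ≤ 7 * ∫⁻ x in N, H x := by
  set a : ℕ → ℝ≥0∞ := fun j => ∫⁻ x in D d j, H x with ha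
  have h1 : ∀ n, ∫⁻ x in A d n, H x ≤ a n + a (n - 1) + a (n - 2) := by
    intro n
    calc ∫⁻ x in A d n, H x ≤ ∫⁻ x in D d n ∪ D d (n - 1) ∪ D d (n - 2), H x :=
          lintegral_mono_set (A_sub n)
      _ ≤ (∫⁻ x in D d n ∪ D d (n - 1), H x) + (∫⁻ x in D d (n - 2), H x) :=
          lintegral_union_le _ _ _
      _ ≤ _ := add_le_add (lintegral_union_le _ _ _) le_rfl
  have hsum : ∑' n, a n ≤ ∫⁻ x in N, H x := by
    rw [← lintegral_iUnion (fun j => measurableSet_D hd j) pairwise_D]
    refine lintegral_mono_set ?_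
    intro x hx
    obtain ⟨j, hj⟩ := mem_iUnion.mp hx
    exact hN x (lt_of_lt_of_le (by positivity) (D_lower hj))
  have h2 : ∑' n, a (n - 2) ≤ 4 * ∑' n, a n := by
    have e : ∀ n, a (n - 2) = (fun m => a (m - 1)) (n - 1) := by
      intro n
      have : n - 1 - 1 = n - 2 := by omega
      simp [this]
    rw [tsum_congr e]
    refine (tsum_pred (fun m => a (m - 1))).trans ?_
    calc 2 * ∑' n, a (n - 1) ≤ 2 * (2 * ∑' n, a n) := by
          gcongr
          exact tsum_pred a
      _ = 4 * ∑' n, a n := by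
          rw [← mul_assoc]; norm_num
  calc ∑' n, ∫⁻ x in A d n, H x ≤ ∑' n, (a n + a (n - 1) + a (n - 2)) :=
        ENNReal.tsum_le_tsum h1
    _ = ∑' n, a n + ∑' n, a (n - 1) + ∑' n, a (n - 2) := by
        rw [ENNReal.tsum_add, ENNReal.tsum_add]
    _ ≤ ∑' n, a n + 2 * ∑' n, a n + 4 * ∑' n, a n := by
        gcongr
        exact tsum_pred a
    _ = 7 * ∑' n, a n := by ring
    _ ≤ _ := by gcongr

/-- choice of one coordinate of the origin of the grid. -/
theorem exists_coord (hd : Measurable d) {H : (Fin 3 → ℝ) → ℝ≥0∞} (hH : Measurable H)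
    {N : Set (Fin 3 → ℝ)} (hN : ∀ x, 0 < d x → x ∈ N) (k : Fin 3) {Z : Set ℝ}
    (hZ : volume Z = 0) :
    ∃ t : ℝ, t ∉ Z ∧ ∑' n, ((∫⁻ x, (A d n).indicator H (Function.update x k (posn n 0 t (x k)))) +
      (∫⁻ x, (A d n).indicator H (Function.update x k (posn n 1 t (x k))))) ≤
        42 * ∫⁻ x in N, H x := by
  have hprob : IsProbabilityMeasure (volume.restrict (Icc (0 : ℝ) 1)) :=
    ⟨by rw [Measure.restrict_apply_univ, Real.volume_Icc]; simp⟩
  have hAH : ∀ n, Measurable ((A d n).indicator H) := fun n =>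
    hH.indicator (measurableSet_A hd n)
  have hmeas : ∀ (n : ℕ) (s : ℝ), Measurable fun t : ℝ =>
      ∫⁻ x, (A d n).indicator H (Function.update x k (posn n s t (x k))) := by
    intro n s
    have : Measurable fun p : ℝ × (Fin 3 → ℝ) =>
        (A d n).indicator H (Function.update p.2 k (posn n s p.1 (p.2 k))) := by
      refine (hAH n).comp (measurable_pi_lambda _ fun l => ?_)
      by_cases hl : l = k
      · subst hl
        simp only [Function.update_self]
        exact (measurable_posn n s).comp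
          (measurable_fst.prodMk ((measurable_pi_apply _).comp measurable_snd))
      · simp only [Function.update_of_ne hl]
        exact (measurable_pi_apply _).comp measurable_snd
    exact Measurable.lintegral_prod_right' this
  have hm : Measurable fun t : ℝ =>
      ∑' n, ((∫⁻ x, (A d n).indicator H (Function.update x k (posn n 0 t (x k)))) +
        (∫⁻ x, (A d n).indicator H (Function.update x k (posn n 1 t (x k))))) :=
    Measurable.tsum fun n => (hmeas n 0).add (hmeas n 1)
  obtain ⟨t, ht1, ht2⟩ := exists_notMem_null_le_lintegral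
    (μ := volume.restrict (Icc (0 : ℝ) 1)) hm.aemeasurable
    (N := Z) (Measure.absolutelyContinuous_of_le Measure.restrict_le_self hZ)
  refine ⟨t, ht1, ht2.trans ?_⟩
  rw [lintegral_tsum (f := fun (n : ℕ) (t : ℝ) =>
    ((∫⁻ x, (A d n).indicator H (Function.update x k (posn n 0 t (x k)))) +
      (∫⁻ x, (A d n).indicator H (Function.update x k (posn n 1 t (x k))))))
    fun n => ((hmeas n 0).add (hmeas n 1)).aemeasurable]
  calc ∑' n, ∫⁻ t in Icc (0 : ℝ) 1,
        ((∫⁻ x, (A d n).indicator H (Function.update x k (posn n 0 t (x k)))) +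
        (∫⁻ x, (A d n).indicator H (Function.update x k (posn n 1 t (x k)))))
      ≤ ∑' n, 6 * ∫⁻ x in A d n, H x := by
        refine ENNReal.tsum_le_tsum fun n => ?_
        rw [lintegral_add_left (hmeas n 0)]
        have h1 := avg3 n k (le_refl (0 : ℝ)) zero_le_one (hAH n)
        have h2 := avg3 n k (zero_le_one : (0 : ℝ) ≤ 1) le_rfl (hAH n)
        rw [lintegral_indicator (measurableSet_A hd n)] at h1 h2
        calc _ ≤ 3 * (∫⁻ x in A d n, H x) + 3 * (∫⁻ x in A d n, H x) := add_le_add h1 h2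
          _ = 6 * ∫⁻ x in A d n, H x := by ring
    _ = 6 * ∑' n, ∫⁻ x in A d n, H x := ENNReal.tsum_mul_left
    _ ≤ 6 * (7 * ∫⁻ x in N, H x) := by
        gcongr
        exact tsum_A_le hd H hN
    _ = 42 * ∫⁻ x in N, H x := by
        rw [← mul_assoc]; norm_num

/-- the coordinates of the grid planes which touch `K`. -/
theorem null_bad {P : Set ℝ} (hP : volume P = 0) :
    volume {t : ℝ | ∃ x ∈ P, ∃ n : ℕ, ∃ m : ℤ, (x - t) * 2 ^ n = m} = 0 := by
  have : {t : ℝ | ∃ x ∈ P, ∃ n : ℕ, ∃ m : ℤ, (x - t) * 2 ^ n = m} ⊆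
      ⋃ n : ℕ, ⋃ m : ℤ, (fun t : ℝ => t + m / 2 ^ n) ⁻¹' P := by
    rintro t ⟨x, hx, n, m, h⟩
    refine mem_iUnion₂.mpr ⟨n, m, ?_⟩
    have hp : (2 : ℝ) ^ n ≠ 0 := by positivity
    have : t + (m : ℝ) / 2 ^ n = x := by
      rw [← h]
      field_simp
      ring
    rw [mem_preimage, this]
    exact hx
  refine measure_mono_null this ?_
  refine measure_iUnion_null fun n => measure_iUnion_null fun m => ?_
  rw [measure_preimage_add_right]
  exact hP

end Vale.Agent.P073.H739
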