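import Vale.Agent.P073.HB.Acl
import Mathlib.MeasureTheory.Measure.Hausdorff
import Mathlib.MeasureTheory.Integral.IntervalIntegral.LebesgueDifferentiationThm

/-!
# P073, row V, part 1: an absolutely continuous function has derivative `0` almost everywhere on
the preimage of a null set
-/

namespace Vale.Agent.P073.H739

open MeasureTheory Set Filter Topology Metric
open scoped ENNReal NNReal

theorem null_of_expand {h : ℝ → ℝ} {E N : Set ℝ} {c : ℝ} (hc : 0 < c)
    (hE : ∀ s ∈ E, ∀ t ∈ E, c * |s - t| ≤ |h s - h t|) (hN : volume N = 0)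
    (hEN : ∀ t ∈ E, h t ∈ N) : volume E = 0 := by
  have hinj : InjOn h E := by
    intro s hs t ht hst
    have h1 := hE s hs t ht
    rw [hst, sub_self, abs_zero] at h1
    have h2 : |s - t| ≤ 0 := by
      by_contra hcon
      push Not at hcon
      have := mul_pos hc hcon
      linarith
    have h3 := abs_nonpos_iff.mp h2
    linarith
  set g := Function.invFunOn h E with hg
  have hgE : ∀ t ∈ E, g (h t) = t := fun t ht => hinj.leftInvOn_invFunOn ht
  have hlip : LipschitzOnWith (Real.toNNReal (1 / c)) g (h '' E) := by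
    rw [lipschitzOnWith_iff_dist_le_mul]
    rintro _ ⟨s, hs, rfl⟩ _ ⟨t, ht, rfl⟩
    rw [hgE s hs, hgE t ht, Real.dist_eq, Real.dist_eq, Real.coe_toNNReal _ (by positivity)]
    have h1 := hE s hs t ht
    rw [one_div, inv_mul_eq_div, le_div_iff₀ hc, mul_comm]
    exact h1
  have h1 := hlip.hausdorffMeasure_image_le (zero_le_one : (0 : ℝ) ≤ 1)
  have h2 : g '' (h '' E) = E := by
    rw [← image_comp]
    ext t
    constructor
    · rintro ⟨s, hs, rfl⟩
      rw [Function.comp_apply, hgE s hs]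
      exact hs
    · intro ht
      exact ⟨t, ht, hgE t ht⟩
  have h3 : volume (h '' E) = 0 := by
    refine measure_mono_null ?_ hN
    rintro _ ⟨t, ht, rfl⟩
    exact hEN t ht
  rw [h2, hausdorffMeasure_real, h3, mul_zero] at h1
  exact le_antisymm h1 zero_le

theorem null_of_deriv {h k : ℝ → ℝ} {E N : Set ℝ} (hd : ∀ t ∈ E, HasDerivAt h (k t) t)
    (hk : ∀ t ∈ E, k t ≠ 0) (hN : volume N = 0) (hEN : ∀ t ∈ E, h t ∈ N) : volume E = 0 := by
  set F : ℕ → ℤ → Set ℝ := fun n q => {t | t ∈ E ∧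
    (∀ s, |s - t| < 1 / (n + 1) → 1 / ((n : ℝ) + 1) * |s - t| ≤ |h s - h t|) ∧
    ⌊t * (n + 1)⌋ = q} with hF
  have hsub : E ⊆ ⋃ n : ℕ, ⋃ q : ℤ, F n q := by
    intro t ht
    have h1 := (hd t ht).isLittleO.def (show 0 < |k t| / 2 by
      have := abs_pos.mpr (hk t ht)
      positivity)
    obtain ⟨r, hr, h2⟩ := Metric.eventually_nhds_iff.mp h1
    obtain ⟨n, hn⟩ := exists_nat_one_div_lt (show 0 < min r (|k t| / 2) by
      have := abs_pos.mpr (hk t ht)
      positivity)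
    refine mem_iUnion₂.mpr ⟨n, ⌊t * (n + 1)⌋, ht, ?_, rfl⟩
    intro s hs
    have h3 := h2 (show dist s t < r by
      rw [Real.dist_eq]
      exact hs.trans (hn.trans_le (min_le_left _ _)))
    rw [Real.norm_eq_abs, Real.norm_eq_abs, smul_eq_mul] at h3
    have h4 : |(s - t) * k t| ≤ |h s - h t| + |h s - h t - (s - t) * k t| := by
      have : (s - t) * k t = (h s - h t) - (h s - h t - (s - t) * k t) := by ring
      calc |(s - t) * k t| = |(h s - h t) - (h s - h t - (s - t) * k t)| := by rw [← this]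
        _ ≤ _ := abs_sub _ _
    rw [abs_mul] at h4
    have h5 : 1 / ((n : ℝ) + 1) ≤ |k t| / 2 := (hn.trans_le (min_le_right _ _)).le
    have h6 : 1 / ((n : ℝ) + 1) * |s - t| ≤ |k t| / 2 * |s - t| :=
      mul_le_mul_of_nonneg_right h5 (abs_nonneg _)
    linarith
  refine measure_mono_null hsub ?_
  refine measure_iUnion_null fun n => measure_iUnion_null fun q => ?_
  have hn : (0 : ℝ) < (n : ℝ) + 1 := by positivity
  refine null_of_expand (h := h) (c := 1 / ((n : ℝ) + 1)) (by positivity) ?_ hN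
    (fun t ht => hEN t ht.1)
  intro s hs t ht
  refine ht.2.1 s ?_
  have h1 : |s * (n + 1) - t * (n + 1)| < 1 := by
    apply Int.abs_sub_lt_one_of_floor_eq_floor
    rw [hs.2.2, ht.2.2]
  rw [← sub_mul, abs_mul, abs_of_pos hn] at h1
  rwa [lt_div_iff₀ hn]

theorem ae_zero_line {h k : ℝ → ℝ} (hk : IntervalIntegrable k volume 0 1)
    (hh : ∀ t ∈ Icc (0 : ℝ) 1, h t = h 0 + ∫ s in (0 : ℝ)..t, k s) {N : Set ℝ}
    (hN : volume N = 0) : ∀ᵐ t, t ∈ Ioo (0 : ℝ) 1 → h t ∈ N → k t = 0 := by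
  have h1 := hk.ae_hasDerivAt_integral
  have h2 : volume {t : ℝ | t ∈ Ioo (0 : ℝ) 1 ∧ HasDerivAt h (k t) t ∧ k t ≠ 0 ∧ h t ∈ N} = 0 :=
    null_of_deriv (h := h) (k := k) (fun t ht => ht.2.1) (fun t ht => ht.2.2.1) hN
      (fun t ht => ht.2.2.2)
  have h3 : ∀ᵐ t, ¬ (t ∈ Ioo (0 : ℝ) 1 ∧ HasDerivAt h (k t) t ∧ k t ≠ 0 ∧ h t ∈ N) := by
    rw [ae_iff]
    simpa only [not_not] using h2
  filter_upwards [h1, h3] with t ht1 ht2 ht hN'
  by_contra hne
  apply ht2
  refine ⟨ht, ?_, hne, hN'⟩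
  have h4 := ht1 (by rw [uIcc_of_le zero_le_one]; exact Ioo_subset_Icc_self ht) 0
    (by rw [uIcc_of_le zero_le_one]; exact ⟨le_rfl, zero_le_one⟩)
  have h5 : HasDerivAt (fun x => h 0 + ∫ s in (0 : ℝ)..x, k s) (k t) t := h4.const_add (h 0)
  refine h5.congr_of_eventuallyEq ?_
  filter_upwards [Ioo_mem_nhds ht.1 ht.2] with x hx
  exact hh x (Ioo_subset_Icc_self hx)

end Vale.Agent.P073.H739
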